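import Vale.Agent.P179.H166.Z19

/-!
# The blockwise Alperin weight conjecture modulo `p` for blocks with good defect groups whose
sections with nontrivial kernels are good (for every prime `p` this includes the abelian groups
and nonabelian groups of arbitrary order); modulo `9` for `3`-blocks with abelian defect groups;
and the same above a normal `p`-subgroup
-/

open P179B

theorem Vale.Agent.Results.P179.BlocksGoodSections.result (p : ℕ) [Fact p.Prime]
    (k : Type*) [Field k] [IsAlgClosed k] [CharP k p] :
    Nonempty (integralClosure ℤ ℂ →+* k) ∧
    ∀ (red : integralClosure ℤ ℂ →+* k) (G : Type) [Group G] [Finite G]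
      (B : MonoidAlgebra k G), IsBlock B →
      (∀ D : Subgroup G, IsDefectGroup B D →
        (AdmissibleDefectGroup p D → AgreeMod p (numSimpleIn B) (numWeightsIn p red B)) ∧
        (p = 3 → AbelianDefectGroup D → AgreeMod 9 (numSimpleIn B) (numWeightsIn p red B))) ∧
      ∀ (R : Subgroup G) [R.Normal], IsPGroup p R →
        (DefectAbove R B (AdmissibleDefectGroup p) →
          AgreeMod p (numSimpleIn B) (numWeightsIn p red B)) ∧
        (p = 3 → DefectAbove R B AbelianDefectGroup →
          AgreeMod 9 (numSimpleIn B) (numWeightsIn p red B)) :=
  ⟨P179C.exists_red p k, fun red _ _ _ B hB =>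
    ⟨fun D hD => theoremFinal4 p red B hB D hD, fun R _ hR => theoremFinal7 p red B hB R hR⟩⟩
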