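import Vale.Agent.P179.H166.KN9

/-!
# The Knörr–Robinson form of the blockwise Alperin weight conjecture, modulo `p`

The Knörr–Robinson sum of a block `B` with nontrivial good defect group (for example with
`Z(D) ⊄ D'`) is divisible by `p`; if the weight congruence holds for the local blocks below a
single block `B` with good defect group, then it holds for `B`; and the blockwise Alperin weight
conjecture is equivalent to the divisibility by `p` of these sums for all blocks with nontrivial
defect groups, or for those whose defect groups are not good.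
-/

open P179B

theorem Vale.Agent.Results.P179.KnorrRobinsonModP.result (p : ℕ) [Fact p.Prime]
    (k : Type*) [Field k] [IsAlgClosed k] [CharP k p] :
    Nonempty (integralClosure ℤ ℂ →+* k) ∧
    (∀ (G : Type) [Group G] [Finite G] (B : MonoidAlgebra k G), IsBlock B →
      ∀ D : Subgroup G, IsDefectGroup B D → D ≠ ⊥ → GoodSection p D → (p : ℤ) ∣ krSum p B) ∧
    (∀ (red : integralClosure ℤ ℂ →+* k) (G : Type) [Group G] [Finite G]
      (B : MonoidAlgebra k G), IsBlock B → ∀ D : Subgroup G, IsDefectGroup B D →
      LocalMod p red B →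
      (D ≠ ⊥ → ((p : ℤ) ∣ krSum p B ↔ numSimpleIn B ≡ numWeightsIn p red B [MOD p])) ∧
      (GoodSection p D → numSimpleIn B ≡ numWeightsIn p red B [MOD p])) ∧
    ∀ (red : integralClosure ℤ ℂ →+* k) (𝒞 : ∀ (G : Type) [Group G], Prop),
      WreathClosed p 𝒞 → SectionClosed p 𝒞 →
      List.TFAE [WeightConj p red 𝒞, WeightConjMod p red 𝒞, KRMod p k 𝒞, KRModExc p k 𝒞] :=
  ⟨P179C.exists_red p k, fun _ _ _ _ hB _ hD hD1 h => theoremKR hB hD hD1 h,
    fun _ _ _ _ _ hB _ hD h => ⟨fun hD1 => krSum_dvd_iff_local hB hD hD1 h,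
      fun hgood => modEq_of_localMod hB hD hgood h⟩,
    fun red 𝒞 hW h𝒞 => tfae_KR red 𝒞 hW h𝒞⟩
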