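import Vale.Agent.P179.H526.Z20

/-!
# The blockwise Alperin weight conjecture for small blocks

The equality `l(B) = |W_p(B)|` for blocks `B` with abelian defect group and small inertial index
(`SmallBlock`); for blocks `B` of `G` such that the blocks of `G / R` dominated by `B` are small,
where `R` is a normal `p`-subgroup of `G`; for all blocks of `G` if the Sylow `p`-subgroups of
`G / R` are abelian with small automiser (`SmallSylow`); and for blocks with a defect group `D` such
that `D R / R` is cyclic, or `p = 3` and `|D R / R| ≤ 9`.
-/

open P179B Subgroup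

theorem Vale.Agent.Results.P179.SmallBlocksEquality.result (p : ℕ) [Fact p.Prime]
    (k : Type*) [Field k] [IsAlgClosed k] [CharP k p] :
    Nonempty (integralClosure ℤ ℂ →+* k) ∧
    ∀ (red : integralClosure ℤ ℂ →+* k) (G : Type) [Group G] [Finite G]
      (B : MonoidAlgebra k G), IsBlock B →
      (∀ D : Subgroup G, IsDefectGroup B D →
        ∃ b : MonoidAlgebra k (centralizer (D : Set G)), IsBlock b ∧ InducesTo b B) ∧
      (SmallBlock p red B → numSimpleIn B = numWeightsIn p red B) ∧
      ∀ (R : Subgroup G) [R.Normal], IsPGroup p R →
        ((∀ B' : MonoidAlgebra k (G ⧸ R), IsBlock B' →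
            B' * MonoidAlgebra.mapDomainAlgHom k k (QuotientGroup.mk' R) B = B' →
            SmallBlock p red B') ∨
          SmallSylow p (G ⧸ R) ∨
          ∃ D : Subgroup G, IsDefectGroup B D ∧
            (IsCyclic (D.map (QuotientGroup.mk' R)) ∨
              p = 3 ∧ Nat.card (D.map (QuotientGroup.mk' R)) ≤ 9)) →
        numSimpleIn B = numWeightsIn p red B := by
  refine ⟨P179C.exists_red p k, fun red G _ _ B hB => ⟨fun D hD => exists_root p hB hD,
    equality_small red hB, ?_⟩⟩
  rintro R _ hR (h | h | ⟨D, hD, h⟩)
  · exact equality_quo red R hR hB fun B' hB' hBB' => equality_small red hB' (h B' hB' hBB')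
  · exact equality_quo red R hR hB fun B' hB' _ => equality_smallSylow red h hB'
  · exact equality_above red R hR hB hD h
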