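import Vale.Agent.P179.H143.RFinal2
import Vale.Agent.P179.H166.WG

/-!
# The blockwise Alperin weight conjecture is equivalent to its congruence modulo `p` for the
# blocks with exceptional defect groups, and to a divisibility property of numbers of commutators
# in finite groups
-/

open P179B

theorem Vale.Agent.Results.P179.WeightReduction.result (p : ℕ) [Fact p.Prime]
    (k : Type*) [Field k] [IsAlgClosed k] [CharP k p] :
    Nonempty (integralClosure ℤ ℂ →+* k) ∧
    (∀ 𝒞 : (∀ (G : Type) [Group G], Prop), WreathClosed p 𝒞 →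
      ((∀ red : integralClosure ℤ ℂ →+* k, WeightConj p red 𝒞) ↔
        ∀ red : integralClosure ℤ ℂ →+* k, WeightConjMod p red 𝒞)) ∧
    ∀ (red : integralClosure ℤ ℂ →+* k) (𝒞 : ∀ (G : Type) [Group G], Prop),
      WreathClosed p 𝒞 → SectionClosed p 𝒞 →
      List.TFAE [WeightConj p red 𝒞, WeightConjMod p red 𝒞, WeightConjModExc p red 𝒞,
        CommDivisible p 𝒞, CommDivisibleMin p 𝒞] :=
  ⟨P179C.exists_red p k, theoremR_final2 p P179R.wrStmt⟩
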